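import Mathlib

/-!
# Nested grids with a random offset (P315, Part A, fact F2)

`f ≥ 0`, grid step `D` dividing the offset range `Dm`.  Summing over all offsets `o < Dm` and all
grid points `o + k D`, every index is hit at most `Dm / D` times.
-/

namespace Vale.Agent.P315.H241

open Finset

/-- Every index `b` is of the form `o + k D`, `o < Dm`, for at most `Dm / D` values of `o`. -/
theorem grid_count (D Dm K b : ℕ) (hD : 0 < D) (hdvd : D ∣ Dm) :
    (((range Dm ×ˢ range K).filter fun p => p.1 + p.2 * D = b).card) ≤ Dm / D := by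
  classical
  obtain ⟨c, rfl⟩ := hdvd
  rw [Nat.mul_div_cancel_left c hD]
  have hinj : ((range (D * c) ×ˢ range K).filter fun p => p.1 + p.2 * D = b).card
      ≤ (range c).card := by
    apply Finset.card_le_card_of_injOn (fun p => p.1 / D)
    · intro p hp
      simp only [coe_filter, mem_product, mem_range, Set.mem_ofPred_eq] at hp
      simp only [coe_range, Set.mem_Iio]
      exact Nat.div_lt_of_lt_mul hp.1.1
    · intro p hp p' hp' h
      simp only [coe_filter, mem_product, mem_range, Set.mem_ofPred_eq] at hp hp'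
      simp only at h
      have h1 : p.1 % D = b % D := by
        rw [← hp.2, Nat.add_mul_mod_self_right]
      have h2 : p'.1 % D = b % D := by
        rw [← hp'.2, Nat.add_mul_mod_self_right]
      have h3 : p.1 = p'.1 := by
        rw [← Nat.div_add_mod p.1 D, ← Nat.div_add_mod p'.1 D, h, h1, h2]
      have h4 : p.2 = p'.2 := by
        have := hp.2.trans hp'.2.symm
        rw [h3] at this
        have h5 : p.2 * D = p'.2 * D := by omega
        exact Nat.eq_of_mul_eq_mul_right hD h5
      exact Prod.ext h3 h4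
  simpa using hinj

/-- **F2, one dimension.**  Sum over offsets of the sum over grid points. -/
theorem sum_grid_le (f : ℕ → ℝ) (hf : ∀ b, 0 ≤ f b) (D Dm K T : ℕ) (hD : 0 < D)
    (hdvd : D ∣ Dm) (hT : Dm + K * D ≤ T) :
    ∑ o ∈ range Dm, ∑ k ∈ range K, f (o + k * D) ≤ ((Dm / D : ℕ) : ℝ) * ∑ b ∈ range T, f b := by
  classical
  rw [← Finset.sum_product']
  have hmaps : ∀ p ∈ range Dm ×ˢ range K, p.1 + p.2 * D ∈ range T := by
    intro p hp
    simp only [mem_product, mem_range] at hp
    rw [mem_range]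
    have : p.2 * D ≤ K * D := Nat.mul_le_mul_right _ hp.2.le
    omega
  rw [← Finset.sum_fiberwise_of_maps_to hmaps, Finset.mul_sum]
  refine Finset.sum_le_sum fun b _ => ?_
  rw [Finset.sum_congr rfl (g := fun _ => f b)
    (fun p hp => by rw [(Finset.mem_filter.1 hp).2])]
  rw [Finset.sum_const, nsmul_eq_mul]
  exact mul_le_mul_of_nonneg_right (by exact_mod_cast grid_count D Dm K b hD hdvd) (hf b)

/-- Windows: the `h` indices at the start of every block (shifted by `c`). -/
theorem sum_grid_window_le (f : ℕ → ℝ) (hf : ∀ b, 0 ≤ f b) (D Dm K T h c : ℕ) (hD : 0 < D)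
    (hdvd : D ∣ Dm) (hT : Dm + K * D + h + c ≤ T) :
    ∑ o ∈ range Dm, ∑ k ∈ range K, ∑ j ∈ range h, f (o + k * D + (c + j))
      ≤ (h : ℝ) * ((Dm / D : ℕ) : ℝ) * ∑ b ∈ range T, f b := by
  classical
  have h1 : ∀ j ∈ range h, ∑ o ∈ range Dm, ∑ k ∈ range K, f (o + k * D + (c + j))
      ≤ ((Dm / D : ℕ) : ℝ) * ∑ b ∈ range T, f b := by
    intro j hj
    rw [mem_range] at hj
    have h2 := sum_grid_le (fun b => f (b + (c + j))) (fun b => hf _) D Dm K (T - (c + j)) hD hdvd
      (by omega)
    refine h2.trans (mul_le_mul_of_nonneg_left ?_ (Nat.cast_nonneg _))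
    have h3 : ∑ b ∈ range (T - (c + j)), f (b + (c + j)) =
        ∑ b ∈ (range (T - (c + j))).map (addRightEmbedding (c + j)), f b := by
      rw [Finset.sum_map]; rfl
    rw [h3]
    refine Finset.sum_le_sum_of_subset_of_nonneg ?_ (fun b _ _ => hf b)
    intro b hb
    simp only [mem_map, mem_range, addRightEmbedding_apply] at hb ⊢
    obtain ⟨a, ha, rfl⟩ := hb
    omega
  calc ∑ o ∈ range Dm, ∑ k ∈ range K, ∑ j ∈ range h, f (o + k * D + (c + j))
      = ∑ j ∈ range h, ∑ o ∈ range Dm, ∑ k ∈ range K, f (o + k * D + (c + j)) := by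
        rw [Finset.sum_congr rfl (fun o _ => Finset.sum_comm), Finset.sum_comm]
    _ ≤ ∑ _j ∈ range h, ((Dm / D : ℕ) : ℝ) * ∑ b ∈ range T, f b := Finset.sum_le_sum h1
    _ = (h : ℝ) * ((Dm / D : ℕ) : ℝ) * ∑ b ∈ range T, f b := by
        rw [Finset.sum_const, card_range, nsmul_eq_mul, mul_assoc]

end Vale.Agent.P315.H241
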