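import Vale.Agent.P315.H679.AccDefs
import Vale.Agent.P315.H241.Grid

/-!
# P315, Part A (short version): F1, A1, F2
-/

set_option autoImplicit false

open Finset

namespace Vale.Agent.P315.H241

open Vale.Agent.P315.Acc

variable {X : Type} [Fintype X] [Nonempty X] (S : Sys X)

theorem nest_le {i j : ℕ} (hij : i ≤ j) {x y : X} (h : S.q i x = S.q i y) :
    S.q j x = S.q j y := by
  induction hij with
  | refl => exact h
  | step _ ih => exact S.nest _ _ _ ih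

theorem av_av {i j : ℕ} (hij : i ≤ j) (f : X → ℝ) (x : X) :
    S.av j (S.av i f) x = S.av j f x :=
  avg_avg S.hw (fun _ _ h => nest_le S hij h) f x

theorem av_meas {j : ℕ} {h : X → ℝ} (hh : ∀ x y, S.q j x = S.q j y → h x = h y) (x : X) :
    S.av j h x = h x :=
  avg_const S.hw x fun y hy => hh y x hy

theorem av_congr {j : ℕ} {x y : X} (h : S.q j x = S.q j y) (f : X → ℝ) :
    S.av j f x = S.av j f y := avg_congr_pt h f

theorem av_mono {j : ℕ} {f g : X → ℝ} (x : X) (h : ∀ y, f y ≤ g y) :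
    S.av j f x ≤ S.av j g x := avg_mono S.hw x fun y _ => h y

/-- one level up the average of the curves does not increase -/
theorem av_e_succ {j l : ℕ} (hjl : j + 1 ≤ l) (hl : l ≤ S.n) (x : X) (b : ℕ) :
    S.av l (fun y => S.e (j + 1) y b) x ≤ S.av l (fun y => S.e j y b) x := by
  rw [← av_av S hjl (fun y => S.e j y b) x]
  exact av_mono S x fun y => S.gain j y b (by omega)

theorem av_e_anti {i j l : ℕ} (hij : i ≤ j) (hjl : j ≤ l) (hl : l ≤ S.n) (x : X) (b : ℕ) :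
    S.av l (fun y => S.e j y b) x ≤ S.av l (fun y => S.e i y b) x := by
  induction hij with
  | refl => exact le_rfl
  | step _ ih => exact (av_e_succ S hjl hl x b).trans (ih (by omega))

theorem av_top (l : ℕ) (x : X) (b : ℕ) : S.av l (fun y => S.e l y b) x = S.e l x b :=
  av_meas S (fun x y h => by rw [S.meas l x y h]) x

theorem two_pow_dvd {s : ℕ} (hs : s ≤ S.smax) : 2 ^ s ∣ S.n :=
  (pow_dvd_pow 2 hs).trans S.hn

theorem na_mul {s : ℕ} (hs : s ≤ S.smax) : S.na s * 2 ^ s = S.n :=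
  Nat.div_mul_cancel (two_pow_dvd S hs)

theorem top_le {s a : ℕ} (hs : s ≤ S.smax) (ha : a < S.na s) : (a + 1) * 2 ^ s ≤ S.n := by
  calc (a + 1) * 2 ^ s ≤ S.na s * 2 ^ s := Nat.mul_le_mul_right _ ha
    _ = S.n := na_mul S hs

/-- curve of the top `≤` average of the intermediate level -/
theorem top_le_mid {s a r : ℕ} (hs : s ≤ S.smax) (ha : a < S.na s) (hr : r ≤ 2 ^ s) (x : X)
    (b : ℕ) : S.e ((a + 1) * 2 ^ s) x b ≤
      S.av ((a + 1) * 2 ^ s) (fun y => S.e (a * 2 ^ s + r) y b) x := by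
  rw [← av_top S ((a + 1) * 2 ^ s) x b]
  exact av_e_anti S (by rw [add_mul, one_mul]; omega) le_rfl (top_le S hs ha) x b

/-- average of the intermediate level `≤` average of the units -/
theorem mid_le_V {s a r : ℕ} (hs : s ≤ S.smax) (ha : a < S.na s) (hr : r ≤ 2 ^ s) (x : X)
    (b : ℕ) : S.av ((a + 1) * 2 ^ s) (fun y => S.e (a * 2 ^ s + r) y b) x ≤ S.V s a x b :=
  av_e_anti S (by omega) (by rw [add_mul, one_mul]; omega) (top_le S hs ha) x b

theorem G_nonneg {s a : ℕ} (hs : s ≤ S.smax) (ha : a < S.na s) (x : X) (b : ℕ) :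
    0 ≤ S.G s a x b := by
  have h := top_le_mid S hs ha (Nat.zero_le _) x b
  simp only [add_zero] at h
  unfold Sys.G Sys.V
  linarith

theorem rho_eq (o s a : ℕ) (x : X) (k : ℕ) :
    S.rho o s a x k = S.nuT o s a x k + S.G s a x (S.b0 o s k) - S.G s a x (S.b1 o s k) := by
  unfold Sys.rho Sys.nuT Sys.nu Sys.G; ring

theorem b0_le_b1 (o s k : ℕ) : S.b0 o s k ≤ S.b1 o s k := by
  unfold Sys.b0 Sys.b1
  have : k * S.D s ≤ (k + 1) * S.D s := Nat.mul_le_mul_right _ (Nat.le_succ k)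
  omega

theorem nu_nonneg (j : ℕ) (x : X) {b b' : ℕ} (h : b ≤ b') : 0 ≤ S.nu j x b b' :=
  sub_nonneg.2 (S.anti j x h)

theorem nuT_nonneg (o s a : ℕ) (x : X) (k : ℕ) : 0 ≤ S.nuT o s a x k :=
  nu_nonneg S _ x (b0_le_b1 S o s k)

theorem nuU_nonneg (o s a : ℕ) (x : X) (k : ℕ) : 0 ≤ S.nuU o s a x k :=
  nu_nonneg S _ x (b0_le_b1 S o s k)

/-- (F1), left end. -/
theorem F1a {s a r : ℕ} (hs : s ≤ S.smax) (ha : a < S.na s) (hr : r ≤ 2 ^ s) (o : ℕ) (x : X)
    (k : ℕ) : S.av ((a + 1) * 2 ^ s)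
      (fun y => S.nu (a * 2 ^ s + r) y (S.b0 o s k) (S.b1 o s k)) x ≤
      S.nuT o s a x k + S.G s a x (S.b0 o s k) := by
  have h1 := mid_le_V S hs ha hr x (S.b0 o s k)
  have h2 := top_le_mid S hs ha hr x (S.b1 o s k)
  have h3 : S.av ((a + 1) * 2 ^ s)
      (fun y => S.nu (a * 2 ^ s + r) y (S.b0 o s k) (S.b1 o s k)) x =
      S.av ((a + 1) * 2 ^ s) (fun y => S.e (a * 2 ^ s + r) y (S.b0 o s k)) x -
      S.av ((a + 1) * 2 ^ s) (fun y => S.e (a * 2 ^ s + r) y (S.b1 o s k)) x := by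
    unfold Sys.nu Sys.av; exact avg_sub _ _ _ _
  rw [h3]
  unfold Sys.nuT Sys.nu Sys.G
  linarith

/-- (F1), right end. -/
theorem F1b {s a r : ℕ} (hs : s ≤ S.smax) (ha : a < S.na s) (hr : r ≤ 2 ^ s) (o : ℕ) (x : X)
    (k : ℕ) : S.av ((a + 1) * 2 ^ s)
      (fun y => S.nu (a * 2 ^ s + r) y (S.b0 o s k) (S.b1 o s k)) x ≤
      S.rho o s a x k + S.G s a x (S.b1 o s k) := by
  have h := F1a S hs ha hr o x k
  rw [rho_eq]; linarith

/-! ## A1 and F2 -/

/-- Sum over the tops of the gain at one index. -/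
noncomputable def FG (s b : ℕ) : ℝ := ∑ a ∈ range (S.na s), S.E (fun x => S.G s a x b)

/-- gains at the first index of the blocks -/
noncomputable def GB0 (o s : ℕ) : ℝ :=
  ∑ a ∈ range (S.na s), S.E (fun x => ∑ k ∈ range (S.nb s), S.G s a x (S.b0 o s k))

/-- gains at the end of the blocks -/
noncomputable def GB1 (o s : ℕ) : ℝ :=
  ∑ a ∈ range (S.na s), S.E (fun x => ∑ k ∈ range (S.nb s), S.G s a x (S.b1 o s k))

theorem E_nonneg {f : X → ℝ} (h : ∀ x, 0 ≤ f x) : 0 ≤ S.E f := EE_nonneg S.hw h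

theorem E_mono {f g : X → ℝ} (h : ∀ x, f x ≤ g x) : S.E f ≤ S.E g := EE_mono S.hw h

theorem E_sum {ι : Type} (s : Finset ι) (f : ι → X → ℝ) :
    S.E (fun x => ∑ i ∈ s, f i x) = ∑ i ∈ s, S.E (f i) := EE_sum s f

theorem E_av (j : ℕ) (f : X → ℝ) : S.E (S.av j f) = S.E f := EE_avg S.hw j f

theorem E_V (s a : ℕ) (b : ℕ) : S.E (fun x => S.V s a x b) = S.E (fun x => S.e (a * 2 ^ s) x b) :=
  E_av S _ _

theorem E_G (s a b : ℕ) : S.E (fun x => S.G s a x b) =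
    S.E (fun x => S.e (a * 2 ^ s) x b) - S.E (fun x => S.e ((a + 1) * 2 ^ s) x b) := by
  rw [← E_V S s a b]
  exact EE_sub _ _

/-- (A1) -/
theorem A1 {s : ℕ} (hs : s ≤ S.smax) (b : ℕ) :
    FG S s b = S.E (fun x => S.e 0 x b) - S.E (fun x => S.e S.n x b) := by
  unfold FG
  rw [Finset.sum_congr rfl fun a _ => E_G S s a b]
  rw [Finset.sum_range_sub' (fun a => S.E (fun x => S.e (a * 2 ^ s) x b))]
  rw [zero_mul, na_mul S hs]

theorem FG_nonneg {s : ℕ} (hs : s ≤ S.smax) (b : ℕ) : 0 ≤ FG S s b :=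
  Finset.sum_nonneg fun a ha => E_nonneg S fun x => G_nonneg S hs (mem_range.1 ha) x b

theorem FG_zero {s : ℕ} (hs : s ≤ S.smax) {b : ℕ} (hb : S.T ≤ b) : FG S s b = 0 := by
  rw [A1 S hs]
  have h0 : ∀ j, (fun x => S.e j x b) = fun _ => (0 : ℝ) := by
    intro j; funext x; exact S.final j x b hb
  rw [h0, h0, sub_self]

theorem FG_sum {s : ℕ} (hs : s ≤ S.smax) : ∑ b ∈ range S.T, FG S s b = S.Gam := by
  unfold Sys.Gam
  exact Finset.sum_congr rfl fun b _ => A1 S hs b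

theorem FG_sum_le {s : ℕ} (hs : s ≤ S.smax) (T' : ℕ) : ∑ b ∈ range T', FG S s b ≤ S.Gam := by
  rw [← FG_sum S hs]
  have h1 : ∑ b ∈ range T', FG S s b ≤ ∑ b ∈ range (T' + S.T), FG S s b :=
    Finset.sum_le_sum_of_subset_of_nonneg (range_subset_range.2 (by omega))
      fun b _ _ => FG_nonneg S hs b
  refine h1.trans (le_of_eq ?_)
  rw [add_comm T' S.T, Finset.sum_range_add]
  rw [Finset.sum_eq_zero (s := range T') fun i _ => FG_zero S hs (by omega), add_zero]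

theorem Gam_nonneg : 0 ≤ S.Gam := by
  rw [← FG_sum S (Nat.zero_le S.smax)]
  exact Finset.sum_nonneg fun b _ => FG_nonneg S (Nat.zero_le _) b

theorem GB0_eq (o s : ℕ) : GB0 S o s = ∑ k ∈ range (S.nb s), FG S s (S.b0 o s k) := by
  unfold GB0 FG
  rw [Finset.sum_comm]
  exact Finset.sum_congr rfl fun a _ => E_sum S _ _

theorem GB1_eq (o s : ℕ) : GB1 S o s = ∑ k ∈ range (S.nb s), FG S s (S.b1 o s k) := by
  unfold GB1 FG
  rw [Finset.sum_comm]
  exact Finset.sum_congr rfl fun a _ => E_sum S _ _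

theorem GB0_nonneg {s : ℕ} (hs : s ≤ S.smax) (o : ℕ) : 0 ≤ GB0 S o s := by
  rw [GB0_eq]; exact Finset.sum_nonneg fun k _ => FG_nonneg S hs _

theorem GB1_nonneg {s : ℕ} (hs : s ≤ S.smax) (o : ℕ) : 0 ≤ GB1 S o s := by
  rw [GB1_eq]; exact Finset.sum_nonneg fun k _ => FG_nonneg S hs _

theorem D_pos (s : ℕ) : 0 < S.D s := Nat.mul_pos (pow_pos (by norm_num) _) S.hD0

theorem D_dvd {s t : ℕ} (h : s ≤ t) : S.D s ∣ S.D t :=
  Nat.mul_dvd_mul_right (pow_dvd_pow 16 h) _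

theorem cast_div_D {s : ℕ} (hs : s ≤ S.smax) :
    (((S.D S.smax / S.D s : ℕ) : ℝ)) = (S.D S.smax : ℝ) / S.D s := by
  rw [Nat.cast_div (D_dvd S hs)]
  exact_mod_cast (D_pos S s).ne'

/-- (F2), first index. -/
theorem F2a {s : ℕ} (hs : s ≤ S.smax) : S.avO (fun o => GB0 S o s) ≤ S.Gam / S.D s := by
  unfold Sys.avO
  have hD : (0 : ℝ) < S.D S.smax := by exact_mod_cast D_pos S S.smax
  have hDs : (0 : ℝ) < S.D s := by exact_mod_cast D_pos S s
  rw [div_le_div_iff₀ hD hDs]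
  have h1 : ∑ o ∈ range (S.D S.smax), GB0 S o s ≤
      ((S.D S.smax / S.D s : ℕ) : ℝ) * ∑ b ∈ range (S.D S.smax + S.nb s * S.D s), FG S s b := by
    rw [Finset.sum_congr rfl fun o _ => GB0_eq S o s]
    exact sum_grid_le (FG S s) (FG_nonneg S hs) (S.D s) (S.D S.smax) (S.nb s) _ (D_pos S s)
      (D_dvd S hs) le_rfl
  have h2 := h1.trans (mul_le_mul_of_nonneg_left (FG_sum_le S hs _) (Nat.cast_nonneg _))
  rw [cast_div_D S hs] at h2
  calc (∑ o ∈ range (S.D S.smax), GB0 S o s) * (S.D s : ℝ)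
      ≤ ((S.D S.smax : ℝ) / S.D s * S.Gam) * S.D s := mul_le_mul_of_nonneg_right h2 hDs.le
    _ = S.Gam * S.D S.smax := by field_simp

/-- (F2), end. -/
theorem F2b {s : ℕ} (hs : s ≤ S.smax) : S.avO (fun o => GB1 S o s) ≤ S.Gam / S.D s := by
  unfold Sys.avO
  have hD : (0 : ℝ) < S.D S.smax := by exact_mod_cast D_pos S S.smax
  have hDs : (0 : ℝ) < S.D s := by exact_mod_cast D_pos S s
  rw [div_le_div_iff₀ hD hDs]
  have h1 : ∑ o ∈ range (S.D S.smax), GB1 S o s ≤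
      ((1 : ℕ) : ℝ) * ((S.D S.smax / S.D s : ℕ) : ℝ) *
        ∑ b ∈ range (S.D S.smax + S.nb s * S.D s + 1 + S.D s), FG S s b := by
    have h := sum_grid_window_le (FG S s) (FG_nonneg S hs) (S.D s) (S.D S.smax) (S.nb s)
      (S.D S.smax + S.nb s * S.D s + 1 + S.D s) 1 (S.D s) (D_pos S s) (D_dvd S hs) le_rfl
    refine le_trans (le_of_eq ?_) h
    refine Finset.sum_congr rfl fun o _ => ?_
    rw [GB1_eq]
    refine Finset.sum_congr rfl fun k _ => ?_
    rw [Finset.sum_range_one]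
    unfold Sys.b1
    congr 1
    ring
  have h2 := h1.trans (mul_le_mul_of_nonneg_left (FG_sum_le S hs _) (by positivity))
  rw [cast_div_D S hs] at h2
  calc (∑ o ∈ range (S.D S.smax), GB1 S o s) * (S.D s : ℝ)
      ≤ (((1 : ℕ) : ℝ) * ((S.D S.smax : ℝ) / S.D s) * S.Gam) * S.D s :=
        mul_le_mul_of_nonneg_right h2 hDs.le
    _ = S.Gam * S.D S.smax := by push_cast; field_simp

end Vale.Agent.P315.H241
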