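import Vale.Agent.P315.H241.Mass

/-!
# P315, Part A (short version): step 10, the ends of the blocks
-/

set_option autoImplicit false

open Finset

namespace Vale.Agent.P315.H241

open Vale.Agent.P315.Acc

variable {X : Type} [Fintype X] [Nonempty X] (S : Sys X)

theorem sum_shift_sub (f : ℕ → ℝ) (N h : ℕ) :
    ∑ i ∈ range N, (f i - f (i + h)) = ∑ i ∈ range h, f i - ∑ i ∈ range h, f (N + i) := by
  have h1 : ∑ i ∈ range (N + h), f i = ∑ i ∈ range N, f i + ∑ i ∈ range h, f (N + i) :=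
    Finset.sum_range_add _ _ _
  have h2 : ∑ i ∈ range (h + N), f i = ∑ i ∈ range h, f i + ∑ i ∈ range N, f (h + i) :=
    Finset.sum_range_add _ _ _
  rw [add_comm h N] at h2
  rw [Finset.sum_sub_distrib]
  have h3 : ∑ i ∈ range N, f (i + h) = ∑ i ∈ range N, f (h + i) :=
    Finset.sum_congr rfl fun i _ => by rw [add_comm]
  rw [h3]
  linarith

/-- Windows of length `h` inside `[0, D)`. -/
theorem windows_ge (f : ℕ → ℝ) (hf : Antitone f) (D h : ℕ) (hD : h ≤ D) :
    (h : ℝ) * (f h - f (D - h)) ≤ ∑ i ∈ range (D + 1 - h), (f i - f (i + h)) := by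
  rw [sum_shift_sub]
  have h1 : ∑ _i ∈ range h, f h ≤ ∑ i ∈ range h, f i :=
    Finset.sum_le_sum fun i hi => hf (mem_range.1 hi).le
  have h2 : ∑ i ∈ range h, f (D + 1 - h + i) ≤ ∑ _i ∈ range h, f (D - h) :=
    Finset.sum_le_sum fun i _ => hf (by omega)
  rw [Finset.sum_const, card_range, nsmul_eq_mul] at h1 h2
  rw [mul_sub]; linarith

/-- Mass of a unit within `2^s` of the ends of a block. -/
noncomputable def edge (o s a : ℕ) (y : X) (k : ℕ) : ℝ :=
  S.nu (a * 2 ^ s) y (S.b0 o s k) (S.b0 o s k + 2 ^ s) +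
    S.nu (a * 2 ^ s) y (S.b1 o s k - 2 ^ s) (S.b1 o s k)

theorem edge_nonneg (o s a : ℕ) (y : X) (k : ℕ) : 0 ≤ edge S o s a y k :=
  add_nonneg (nu_nonneg S _ y (Nat.le_add_right _ _)) (nu_nonneg S _ y (Nat.sub_le _ _))

theorem two_pow_le_D (s : ℕ) : 2 ^ s ≤ S.D s := by
  unfold Sys.D
  calc 2 ^ s = 2 ^ s * 1 := (mul_one _).symm
    _ ≤ 16 ^ s * S.D0 := Nat.mul_le_mul (Nat.pow_le_pow_left (by norm_num) s) S.hD0

/-- Windows inside a block see the mass of the unit except the ends. -/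
theorem unit_windows (o s a : ℕ) (y : X) (k : ℕ) :
    2 ^ s * (S.nuU o s a y k - edge S o s a y k) ≤
      ∑ i ∈ range (S.D s + 1 - 2 ^ s),
        S.nu (a * 2 ^ s) y (S.b0 o s k + i) (S.b0 o s k + i + 2 ^ s) := by
  have h := windows_ge (fun i => S.e (a * 2 ^ s) y (S.b0 o s k + i))
    (fun i j hij => S.anti _ _ (by omega)) (S.D s) (2 ^ s) (two_pow_le_D S s)
  have hb : S.b1 o s k = S.b0 o s k + S.D s := by unfold Sys.b0 Sys.b1; ring
  have h2 := two_pow_le_D S s
  have hb' : S.b1 o s k - 2 ^ s = S.b0 o s k + (S.D s - 2 ^ s) := by omega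
  unfold edge Sys.nuU Sys.nu
  rw [hb', hb]
  simp only [← add_assoc] at h
  push_cast at h
  refine le_trans (le_of_eq ?_) h
  have e1 : S.b0 o s k + (S.D s - 2 ^ s) = S.b0 o s k + (S.D s - 2 ^ s) := rfl
  ring

/-- **Step 10**, one block. -/
theorem step10 (R : Mach S) (C7 : ℝ) (good : ℕ → ℕ → X → Prop) (o s a : ℕ) (x : X) (k : ℕ) :
    2 ^ s * S.av ((a + 1) * 2 ^ s) (fun y => S.nuU o s a y k *
        ind (S.nuU o s a y k ≤ C7 * R.m o s a x k ∧ good s a y)) x ≤
      R.lhs C7 good o s a x k +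
        2 ^ s * S.av ((a + 1) * 2 ^ s) (fun y => edge S o s a y k) x := by
  have h1 : R.lhs C7 good o s a x k = S.av ((a + 1) * 2 ^ s) (fun y =>
      ∑ i ∈ range (S.D s + 1 - 2 ^ s),
        (S.nu (a * 2 ^ s) y (S.b0 o s k + i) (S.b0 o s k + i + 2 ^ s) *
        ind (S.nuU o s a y k ≤ C7 * R.m o s a x k ∧ good s a y))) x := by
    unfold Mach.lhs
    exact (avg_sum _ _ _ _).symm
  have h2 : ∀ f : X → ℝ, (2 : ℝ) ^ s * S.av ((a + 1) * 2 ^ s) f x =
      S.av ((a + 1) * 2 ^ s) (fun y => 2 ^ s * f y) x :=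
    fun f => (avg_mul_left _ _ _ _).symm
  rw [h1, h2, h2]
  have h3 : ∀ f g : X → ℝ, S.av ((a + 1) * 2 ^ s) f x + S.av ((a + 1) * 2 ^ s) g x =
      S.av ((a + 1) * 2 ^ s) (fun y => f y + g y) x := fun f g => (avg_add _ _ _ _).symm
  rw [h3]
  refine av_mono S x fun y => ?_
  rw [← Finset.sum_mul]
  have h4 := unit_windows S o s a y k
  have h5 := edge_nonneg S o s a y k
  have h6 : (0 : ℝ) < 2 ^ s := by positivity
  by_cases hc : S.nuU o s a y k ≤ C7 * R.m o s a x k ∧ good s a y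
  · rw [ind_true hc, mul_one, mul_one]
    rw [mul_sub] at h4; linarith
  · rw [ind_false hc]
    have := mul_nonneg h6.le h5
    linarith

/-- Sum of the ends over all tops and blocks of a scale. -/
noncomputable def ED (o s : ℕ) : ℝ :=
  ∑ a ∈ range (S.na s), S.E (fun y => ∑ k ∈ range (S.nb s), edge S o s a y k)

theorem ED_nonneg (o s : ℕ) : 0 ≤ ED S o s :=
  Finset.sum_nonneg fun a _ => E_nonneg S fun y => Finset.sum_nonneg fun k _ =>
    edge_nonneg S o s a y k

theorem drop_sum_le (j : ℕ) (y : X) (N h c : ℕ) :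
    ∑ b ∈ range N, (S.e j y (b + c) - S.e j y (b + c + h)) ≤ h := by
  have h1 := sum_shift_sub (fun b => S.e j y (b + c)) N h
  have h2 : ∑ b ∈ range N, (S.e j y (b + c) - S.e j y (b + c + h)) =
      ∑ i ∈ range N, ((fun b => S.e j y (b + c)) i - (fun b => S.e j y (b + c)) (i + h)) := by
    refine Finset.sum_congr rfl fun b _ => ?_
    simp only
    rw [add_right_comm b c h]
  rw [h2, h1]
  have h3 : ∑ i ∈ range h, S.e j y (i + c) ≤ ∑ _i ∈ range h, (1 : ℝ) :=
    Finset.sum_le_sum fun i _ => S.le_one _ _ _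
  have h4 : 0 ≤ ∑ i ∈ range h, S.e j y (N + i + c) :=
    Finset.sum_nonneg fun i _ => S.nonneg _ _ _
  simp only [Finset.sum_const, card_range, nsmul_eq_mul, mul_one] at h3
  linarith

/-- Sum over the offsets of the ends of the blocks, one unit. -/
theorem edge_offsets {s : ℕ} (hs : s ≤ S.smax) (a : ℕ) (y : X) :
    ∑ o ∈ range (S.D S.smax), ∑ k ∈ range (S.nb s), edge S o s a y k ≤
      ((S.D S.smax / S.D s : ℕ) : ℝ) * (2 * 2 ^ s) := by
  have h2 := two_pow_le_D S s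
  have e1 : ∀ o k, edge S o s a y k =
      (S.e (a * 2 ^ s) y (o + k * S.D s + 0) - S.e (a * 2 ^ s) y (o + k * S.D s + 0 + 2 ^ s)) +
      (S.e (a * 2 ^ s) y (o + k * S.D s + (S.D s - 2 ^ s)) -
        S.e (a * 2 ^ s) y (o + k * S.D s + (S.D s - 2 ^ s) + 2 ^ s)) := by
    intro o k
    unfold edge Sys.nu
    have hb : S.b1 o s k = o + k * S.D s + (S.D s - 2 ^ s) + 2 ^ s := by
      unfold Sys.b1; rw [add_mul, one_mul]; omega
    have hb' : S.b1 o s k - 2 ^ s = o + k * S.D s + (S.D s - 2 ^ s) := by omega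
    rw [hb', hb]
    rfl
  simp only [e1, Finset.sum_add_distrib]
  have h3 : ∀ c, ∑ o ∈ range (S.D S.smax), ∑ k ∈ range (S.nb s),
      (S.e (a * 2 ^ s) y (o + k * S.D s + c) - S.e (a * 2 ^ s) y (o + k * S.D s + c + 2 ^ s)) ≤
      ((S.D S.smax / S.D s : ℕ) : ℝ) * 2 ^ s := by
    intro c
    have h4 := sum_grid_le
      (fun b => S.e (a * 2 ^ s) y (b + c) - S.e (a * 2 ^ s) y (b + c + 2 ^ s))
      (fun b => sub_nonneg.2 (S.anti _ _ (Nat.le_add_right _ _))) (S.D s) (S.D S.smax) (S.nb s) _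
      (D_pos S s)
      (D_dvd S hs) le_rfl
    refine h4.trans (mul_le_mul_of_nonneg_left ?_ (Nat.cast_nonneg _))
    have := drop_sum_le S (a * 2 ^ s) y (S.D S.smax + S.nb s * S.D s) (2 ^ s) c
    push_cast at this
    exact this
  have h5 := h3 0
  have h6 := h3 (S.D s - 2 ^ s)
  linarith

/-- Average of the ends over the offsets. -/
theorem ED_avO {s : ℕ} (hs : s ≤ S.smax) :
    2 ^ s * S.avO (fun o => ED S o s) ≤ S.n * (2 * 2 ^ s / S.D s) := by
  have hD : (0 : ℝ) < S.D S.smax := by exact_mod_cast D_pos S S.smax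
  have hDs : (0 : ℝ) < S.D s := by exact_mod_cast D_pos S s
  have h1 : S.avO (fun o => ED S o s) ≤ S.na s * (2 * 2 ^ s / S.D s) := by
    unfold Sys.avO ED
    rw [div_le_iff₀ hD, Finset.sum_comm]
    have h2 : ∀ a ∈ range (S.na s), ∑ o ∈ range (S.D S.smax),
        S.E (fun y => ∑ k ∈ range (S.nb s), edge S o s a y k) ≤
        ((S.D S.smax / S.D s : ℕ) : ℝ) * (2 * 2 ^ s) := by
      intro a _
      rw [← E_sum, ← E_const S (((S.D S.smax / S.D s : ℕ) : ℝ) * (2 * 2 ^ s))]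
      exact E_mono S fun y => edge_offsets S hs a y
    refine (Finset.sum_le_sum h2).trans (le_of_eq ?_)
    rw [Finset.sum_const, card_range, nsmul_eq_mul, cast_div_D S hs]
    field_simp
  calc 2 ^ s * S.avO (fun o => ED S o s) ≤ 2 ^ s * (S.na s * (2 * 2 ^ s / S.D s)) :=
        mul_le_mul_of_nonneg_left h1 (by positivity)
    _ = (2 ^ s * (S.na s : ℝ)) * (2 * 2 ^ s / S.D s) := by ring
    _ = _ := by rw [cast_na_mul S hs]

/-- The ends of one top: average over the units. -/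
theorem E_av_edge (o s : ℕ) :
    ∑ a ∈ range (S.na s), S.E (fun x => ∑ k ∈ range (S.nb s),
      S.av ((a + 1) * 2 ^ s) (fun y => edge S o s a y k) x) = ED S o s := by
  unfold ED
  refine Finset.sum_congr rfl fun a _ => ?_
  rw [E_sum, E_sum]
  exact Finset.sum_congr rfl fun k _ => E_av S _ _

end Vale.Agent.P315.H241
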