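import Vale.Agent.P315.H241.Edge

/-!
# P315, Part A (short version): average over the offsets of the final inequality
-/

set_option autoImplicit false

open Finset

namespace Vale.Agent.P315.H241

open Vale.Agent.P315.Acc

variable {X : Type} [Fintype X] [Nonempty X] (S : Sys X)

theorem Dmax_pos : (0 : ℝ) < S.D S.smax := by exact_mod_cast D_pos S S.smax

theorem avO_add (f g : ℕ → ℝ) : S.avO (fun o => f o + g o) = S.avO f + S.avO g := by
  unfold Sys.avO; rw [← add_div, ← Finset.sum_add_distrib]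

theorem avO_mul_left (c : ℝ) (f : ℕ → ℝ) : S.avO (fun o => c * f o) = c * S.avO f := by
  unfold Sys.avO; rw [← Finset.mul_sum, mul_div_assoc]

theorem avO_const (c : ℝ) : S.avO (fun _ => c) = c := by
  unfold Sys.avO
  rw [Finset.sum_const, card_range, nsmul_eq_mul]
  have := (Dmax_pos S).ne'
  field_simp

theorem avO_sum (I : Finset ℕ) (f : ℕ → ℕ → ℝ) :
    S.avO (fun o => ∑ s ∈ I, f o s) = ∑ s ∈ I, S.avO (fun o => f o s) := by
  unfold Sys.avO; rw [Finset.sum_comm, Finset.sum_div]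

theorem avO_mono {f g : ℕ → ℝ} (h : ∀ o, o < S.D S.smax → f o ≤ g o) : S.avO f ≤ S.avO g := by
  unfold Sys.avO
  exact div_le_div_of_nonneg_right (Finset.sum_le_sum fun o ho => h o (mem_range.1 ho))
    (Dmax_pos S).le

/-- blow-up budget of one offset -/
noncomputable def US (o s : ℕ) : ℝ :=
  ∑ t ∈ Icc (s + 2) S.smax, 2 ^ (t - s + 1) * (1 + GB1 S o t)

/-- averaged blow-up budget -/
noncomputable def UA (s : ℕ) : ℝ :=
  ∑ t ∈ Icc (s + 2) S.smax, 2 ^ (t - s + 1) * (1 + S.Gam / S.D t)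

theorem US_avO (s : ℕ) : S.avO (fun o => US S o s) ≤ UA S s := by
  unfold US UA
  rw [avO_sum]
  refine Finset.sum_le_sum fun t ht => ?_
  rw [mem_Icc] at ht
  rw [avO_mul_left, avO_add, avO_const]
  have := F2b S ht.2
  exact mul_le_mul_of_nonneg_left (by linarith) (by positivity)

/-- One scale of the error of one offset, without the extra terms. -/
noncomputable def errO (th th' L : ℕ → ℝ) (N : ℕ → ℕ) (o s : ℕ) : ℝ :=
  16 * (th (s - 1) / th' s) * S.n + 2 ^ (s - 1) * GB0 S o (s - 1) +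
    2 ^ s * (1 + L s) * (6 * (GB0 S o s + GB1 S o s) + 5 / 4 * US S o s) +
    2 ^ (s + 1) * N s * (1 + GB1 S o s) + 2 ^ s * ED S o s

/-- One scale of the averaged error, without the extra terms. -/
noncomputable def errA (th th' L : ℕ → ℝ) (N : ℕ → ℕ) (s : ℕ) : ℝ :=
  16 * (th (s - 1) / th' s) * S.n + 2 ^ (s - 1) * (S.Gam / S.D (s - 1)) +
    2 ^ s * (1 + L s) * (12 * (S.Gam / S.D s) + 5 / 4 * UA S s) +
    2 ^ (s + 1) * N s * (1 + S.Gam / S.D s) + S.n * (2 * 2 ^ s / S.D s)

theorem errO_avO {th th' L : ℕ → ℝ} (hL : ∀ s, 0 ≤ L s) (N : ℕ → ℕ) {s : ℕ}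
    (hs : s ≤ S.smax) : S.avO (fun o => errO S th th' L N o s) ≤ errA S th th' L N s := by
  have e : (fun o => errO S th th' L N o s) = fun o =>
      (((16 * (th (s - 1) / th' s) * S.n + 2 ^ (s - 1) * GB0 S o (s - 1)) +
      2 ^ s * (1 + L s) * (6 * (GB0 S o s + GB1 S o s) + 5 / 4 * US S o s)) +
      2 ^ (s + 1) * N s * (1 + GB1 S o s)) + 2 ^ s * ED S o s := by
    funext o; unfold errO; ring
  rw [e]
  simp only [avO_add, avO_mul_left, avO_const]
  unfold errA
  have h1 := F2a S (s := s - 1) (by omega)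
  have h2 := F2a S hs
  have h3 := F2b S hs
  have h4 := US_avO S s
  have h5 := ED_avO S hs
  have h6 : (2 : ℝ) ^ (s - 1) * S.avO (fun o => GB0 S o (s - 1)) ≤
      2 ^ (s - 1) * (S.Gam / S.D (s - 1)) := mul_le_mul_of_nonneg_left h1 (by positivity)
  have h7 : (2 : ℝ) ^ s * (1 + L s) * (6 * (S.avO (fun o => GB0 S o s) +
      S.avO (fun o => GB1 S o s)) + 5 / 4 * S.avO (fun o => US S o s)) ≤
      2 ^ s * (1 + L s) * (12 * (S.Gam / S.D s) + 5 / 4 * UA S s) := by
    have := hL s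
    refine mul_le_mul_of_nonneg_left (by linarith) (by positivity)
  have h8 : (2 : ℝ) ^ (s + 1) * N s * (1 + S.avO (fun o => GB1 S o s)) ≤
      2 ^ (s + 1) * N s * (1 + S.Gam / S.D s) :=
    mul_le_mul_of_nonneg_left (by linarith) (by positivity)
  linarith

/-- **Average over the offsets.** `T` = elements heavy at scale `0`, `ex` = capacities, failures
and bad units. -/
theorem final_avg {th th' L : ℕ → ℝ} (hL : ∀ s, 0 ≤ L s) (N : ℕ → ℕ) (T : ℕ → ℝ)
    (ex : ℕ → ℕ → ℝ)
    (hfix : ∀ o, o < S.D S.smax → ∑ j ∈ range S.n, S.E (fun x => S.e j x o) ≤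
      4 * S.Gam + T o + S.n * (S.nb S.smax * th S.smax) + 2 ^ S.smax * GB0 S o S.smax +
        ∑ s ∈ Icc 1 S.smax, (errO S th th' L N o s + ex o s)) :
    ∑ j ∈ range S.n, S.E (fun x => S.e j x (S.D S.smax)) ≤
      4 * S.Gam + S.avO T + S.n * (S.nb S.smax * th S.smax) +
        2 ^ S.smax * (S.Gam / S.D S.smax) +
        ∑ s ∈ Icc 1 S.smax, (errA S th th' L N s + S.avO (fun o => ex o s)) := by
  have h1 : ∑ j ∈ range S.n, S.E (fun x => S.e j x (S.D S.smax)) ≤
      S.avO (fun o => 4 * S.Gam + T o + S.n * (S.nb S.smax * th S.smax) +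
        2 ^ S.smax * GB0 S o S.smax +
        ∑ s ∈ Icc 1 S.smax, (errO S th th' L N o s + ex o s)) := by
    rw [← avO_const S (∑ j ∈ range S.n, S.E (fun x => S.e j x (S.D S.smax)))]
    refine avO_mono S fun o ho => ?_
    exact (Finset.sum_le_sum fun j _ => E_mono S fun x => S.anti j x ho.le).trans (hfix o ho)
  refine h1.trans ?_
  simp only [avO_add, avO_const, avO_mul_left, avO_sum]
  have h2 := F2a S (le_refl S.smax)
  have h3 : (2 : ℝ) ^ S.smax * S.avO (fun o => GB0 S o S.smax) ≤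
      2 ^ S.smax * (S.Gam / S.D S.smax) := mul_le_mul_of_nonneg_left h2 (by positivity)
  have h4 : ∑ s ∈ Icc 1 S.smax, (S.avO (fun o => errO S th th' L N o s) +
      S.avO (fun o => ex o s)) ≤
      ∑ s ∈ Icc 1 S.smax, (errA S th th' L N s + S.avO (fun o => ex o s)) := by
    refine Finset.sum_le_sum fun s hs => ?_
    rw [mem_Icc] at hs
    have := errO_avO S hL N (th := th) (th' := th') hs.2
    linarith
  linarith

end Vale.Agent.P315.H241
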