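import Vale.Agent.P315.H241.Basic

/-!
# P315, Part A (short version): decomposition of the mass, steps 2, 3, 4

For every offset `o < D smax` the total mass is split by the smallest heavy scale.
-/

set_option autoImplicit false

open Finset

namespace Vale.Agent.P315.H241

open Vale.Agent.P315.Acc

variable {X : Type} [Fintype X] [Nonempty X] (S : Sys X)

theorem sum_range_mul_div (N m : ℕ) (hm : 0 < m) (F : ℕ → ℕ → ℝ) :
    ∑ k ∈ range (N * m), F (k / m) k = ∑ K ∈ range N, ∑ i ∈ range m, F K (K * m + i) := by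
  induction N with
  | zero => simp
  | succ N ih =>
    rw [add_mul, one_mul, Finset.sum_range_add, ih, Finset.sum_range_succ]
    congr 1
    refine Finset.sum_congr rfl fun i hi => ?_
    have : (N * m + i) / m = N := by
      rw [mul_comm N m, Nat.mul_add_div hm, Nat.div_eq_of_lt (mem_range.1 hi), add_zero]
    rw [this]

theorem sum_sub_grid (f : ℕ → ℝ) (o D N : ℕ) :
    ∑ i ∈ range N, (f (o + i * D) - f (o + (i + 1) * D)) = f o - f (o + N * D) := by
  have := Finset.sum_range_sub' (fun i => f (o + i * D)) N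
  simpa using this

/-- The sub-blocks of scale `0` of a block. -/
theorem sub_blocks (j : ℕ) (x : X) (o s K : ℕ) :
    ∑ i ∈ range (16 ^ s), S.nu j x (S.b0 o 0 (K * 16 ^ s + i)) (S.b1 o 0 (K * 16 ^ s + i)) =
      S.nu j x (S.b0 o s K) (S.b1 o s K) := by
  have h := sum_sub_grid (S.e j x) (o + K * 16 ^ s * S.D 0) (S.D 0) (16 ^ s)
  have e1 : ∀ i, S.nu j x (S.b0 o 0 (K * 16 ^ s + i)) (S.b1 o 0 (K * 16 ^ s + i)) =
      S.e j x (o + K * 16 ^ s * S.D 0 + i * S.D 0) -
      S.e j x (o + K * 16 ^ s * S.D 0 + (i + 1) * S.D 0) := by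
    intro i
    unfold Sys.nu Sys.b0 Sys.b1
    congr 2 <;> ring
  rw [Finset.sum_congr rfl fun i _ => e1 i, h]
  unfold Sys.nu Sys.b0 Sys.b1 Sys.D
  congr 2 <;> ring

/-- All the blocks of one scale see the whole drop after the offset. -/
theorem sum_blocks (o : ℕ) {s : ℕ} (hs : s ≤ S.smax) (j : ℕ) (x : X) :
    ∑ k ∈ range (S.nb s), S.nu j x (S.b0 o s k) (S.b1 o s k) = S.e j x o := by
  have h := sum_sub_grid (S.e j x) o (S.D s) (S.nb s)
  have hnb : S.nb s * S.D s = S.NB * (16 ^ S.smax * S.D0) := by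
    unfold Sys.nb Sys.D
    have : 16 ^ S.smax = 16 ^ (S.smax - s) * 16 ^ s := by rw [← pow_add]; congr 1; omega
    rw [this]; ring
  have h2 : S.e j x (o + S.nb s * S.D s) = 0 := S.final j x _ (by omega)
  unfold Sys.nu Sys.b0 Sys.b1
  rw [h, h2, sub_zero]

/-- Regrouping of the elements (level, block of scale `0`) by the tops and blocks of scale `s`. -/
theorem regroup {s : ℕ} (hs : s ≤ S.smax) (o : ℕ) (f : ℕ → X → ℕ → ℝ) :
    ∑ j ∈ range S.n, S.E (fun x => ∑ k ∈ range (S.nb 0),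
        S.nu j x (S.b0 o 0 k) (S.b1 o 0 k) * f (j / 2 ^ s) x (k / 16 ^ s)) =
      ∑ a ∈ range (S.na s), ∑ r ∈ range (2 ^ s), S.E (fun x => ∑ k ∈ range (S.nb s),
        S.nu (a * 2 ^ s + r) x (S.b0 o s k) (S.b1 o s k) * f a x k) := by
  have hk : ∀ j a : ℕ, ∀ x : X, ∑ k ∈ range (S.nb 0),
        S.nu j x (S.b0 o 0 k) (S.b1 o 0 k) * f a x (k / 16 ^ s) =
      ∑ k ∈ range (S.nb s), S.nu j x (S.b0 o s k) (S.b1 o s k) * f a x k := by
    intro j a x
    have hnb : S.nb 0 = S.nb s * 16 ^ s := by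
      unfold Sys.nb
      rw [mul_assoc, ← pow_add]; congr 2; omega
    rw [hnb, sum_range_mul_div (S.nb s) (16 ^ s) (by positivity)
      (fun K k => S.nu j x (S.b0 o 0 k) (S.b1 o 0 k) * f a x K)]
    refine Finset.sum_congr rfl fun K _ => ?_
    rw [← Finset.sum_mul, sub_blocks]
  rw [Finset.sum_congr rfl fun j _ => by
    rw [show (fun x => ∑ k ∈ range (S.nb 0),
        S.nu j x (S.b0 o 0 k) (S.b1 o 0 k) * f (j / 2 ^ s) x (k / 16 ^ s)) =
        fun x => ∑ k ∈ range (S.nb s), S.nu j x (S.b0 o s k) (S.b1 o s k) * f (j / 2 ^ s) x k from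
        funext fun x => hk j _ x]]
  conv_lhs => rw [← na_mul S hs]
  exact sum_range_mul_div (S.na s) (2 ^ s) (by positivity)
    (fun a j => S.E (fun x => ∑ k ∈ range (S.nb s),
      S.nu j x (S.b0 o s k) (S.b1 o s k) * f a x k))

/-- Averaging over the units with a factor that only depends on the top. -/
theorem E_mul_av {L : ℕ} {f : X → ℝ} (hf : ∀ x y, S.q L x = S.q L y → f x = f y) (g : X → ℝ) :
    S.E (fun x => g x * f x) = S.E (fun x => f x * S.av L g x) := by
  have h := EE_pull (w := S.w) (q := S.q) S.hw L (f := g) (h := f) fun x y h => hf y x h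
  unfold Sys.E Sys.av
  rw [h]
  congr 1
  funext x; ring

/-- Level inside a top, left end. -/
theorem E_mass_a {s a r : ℕ} (hs : s ≤ S.smax) (ha : a < S.na s) (hr : r ≤ 2 ^ s) (o k : ℕ)
    {f : X → ℝ} (hf0 : ∀ x, 0 ≤ f x)
    (hf : ∀ x y, S.q ((a + 1) * 2 ^ s) x = S.q ((a + 1) * 2 ^ s) y → f x = f y) :
    S.E (fun x => S.nu (a * 2 ^ s + r) x (S.b0 o s k) (S.b1 o s k) * f x) ≤
      S.E (fun x => f x * (S.nuT o s a x k + S.G s a x (S.b0 o s k))) := by
  rw [E_mul_av S hf]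
  exact E_mono S fun x => mul_le_mul_of_nonneg_left (F1a S hs ha hr o x k) (hf0 x)

/-- Level inside a top, right end. -/
theorem E_mass_b {s a r : ℕ} (hs : s ≤ S.smax) (ha : a < S.na s) (hr : r ≤ 2 ^ s) (o k : ℕ)
    {f : X → ℝ} (hf0 : ∀ x, 0 ≤ f x)
    (hf : ∀ x y, S.q ((a + 1) * 2 ^ s) x = S.q ((a + 1) * 2 ^ s) y → f x = f y) :
    S.E (fun x => S.nu (a * 2 ^ s + r) x (S.b0 o s k) (S.b1 o s k) * f x) ≤
      S.E (fun x => f x * (S.rho o s a x k + S.G s a x (S.b1 o s k))) := by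
  rw [E_mul_av S hf]
  exact E_mono S fun x => mul_le_mul_of_nonneg_left (F1b S hs ha hr o x k) (hf0 x)

theorem nuT_meas (o s a k : ℕ) {L : ℕ} (hL : L ≤ (a + 1) * 2 ^ s) {x y : X}
    (h : S.q L x = S.q L y) : S.nuT o s a x k = S.nuT o s a y k := by
  unfold Sys.nuT Sys.nu
  rw [S.meas _ x y (nest_le S hL h)]

/-- General step: sum over a scale of the elements selected by a top-measurable indicator. -/
theorem sum_scale_a {s : ℕ} (hs : s ≤ S.smax) (o : ℕ) (f : ℕ → X → ℕ → ℝ)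
    (hf0 : ∀ a x k, 0 ≤ f a x k)
    (hf : ∀ a x y k, S.q ((a + 1) * 2 ^ s) x = S.q ((a + 1) * 2 ^ s) y → f a x k = f a y k) :
    ∑ j ∈ range S.n, S.E (fun x => ∑ k ∈ range (S.nb 0),
        S.nu j x (S.b0 o 0 k) (S.b1 o 0 k) * f (j / 2 ^ s) x (k / 16 ^ s)) ≤
      2 ^ s * ∑ a ∈ range (S.na s), S.E (fun x => ∑ k ∈ range (S.nb s),
        f a x k * (S.nuT o s a x k + S.G s a x (S.b0 o s k))) := by
  rw [regroup S hs o f, Finset.mul_sum]
  refine Finset.sum_le_sum fun a ha => ?_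
  rw [mem_range] at ha
  have h1 : ∀ r ∈ range (2 ^ s), S.E (fun x => ∑ k ∈ range (S.nb s),
        S.nu (a * 2 ^ s + r) x (S.b0 o s k) (S.b1 o s k) * f a x k) ≤
      S.E (fun x => ∑ k ∈ range (S.nb s),
        f a x k * (S.nuT o s a x k + S.G s a x (S.b0 o s k))) := by
    intro r hr
    rw [E_sum, E_sum]
    refine Finset.sum_le_sum fun k _ => ?_
    exact E_mass_a S hs ha (mem_range.1 hr).le o k (fun x => hf0 a x k) (fun x y h => hf a x y k h)
  refine (Finset.sum_le_sum h1).trans (le_of_eq ?_)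
  rw [Finset.sum_const, card_range, nsmul_eq_mul]
  push_cast; rfl

theorem sum_scale_b {s : ℕ} (hs : s ≤ S.smax) (o : ℕ) (f : ℕ → X → ℕ → ℝ)
    (hf0 : ∀ a x k, 0 ≤ f a x k)
    (hf : ∀ a x y k, S.q ((a + 1) * 2 ^ s) x = S.q ((a + 1) * 2 ^ s) y → f a x k = f a y k) :
    ∑ j ∈ range S.n, S.E (fun x => ∑ k ∈ range (S.nb 0),
        S.nu j x (S.b0 o 0 k) (S.b1 o 0 k) * f (j / 2 ^ s) x (k / 16 ^ s)) ≤
      2 ^ s * ∑ a ∈ range (S.na s), S.E (fun x => ∑ k ∈ range (S.nb s),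
        f a x k * (S.rho o s a x k + S.G s a x (S.b1 o s k))) := by
  rw [regroup S hs o f, Finset.mul_sum]
  refine Finset.sum_le_sum fun a ha => ?_
  rw [mem_range] at ha
  have h1 : ∀ r ∈ range (2 ^ s), S.E (fun x => ∑ k ∈ range (S.nb s),
        S.nu (a * 2 ^ s + r) x (S.b0 o s k) (S.b1 o s k) * f a x k) ≤
      S.E (fun x => ∑ k ∈ range (S.nb s),
        f a x k * (S.rho o s a x k + S.G s a x (S.b1 o s k))) := by
    intro r hr
    rw [E_sum, E_sum]
    refine Finset.sum_le_sum fun k _ => ?_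
    exact E_mass_b S hs ha (mem_range.1 hr).le o k (fun x => hf0 a x k) (fun x y h => hf a x y k h)
  refine (Finset.sum_le_sum h1).trans (le_of_eq ?_)
  rw [Finset.sum_const, card_range, nsmul_eq_mul]
  push_cast; rfl

/-! ## the four kinds of elements -/

/-- Mass of the elements (level, block of scale `0`) with a weight `f`. -/
noncomputable def Mf (o : ℕ) (f : ℕ → X → ℕ → ℝ) : ℝ :=
  ∑ j ∈ range S.n, S.E (fun x => ∑ k ∈ range (S.nb 0),
    S.nu j x (S.b0 o 0 k) (S.b1 o 0 k) * f j x k)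

theorem Mf_add (o : ℕ) (f g : ℕ → X → ℕ → ℝ) :
    Mf S o (fun j x k => f j x k + g j x k) = Mf S o f + Mf S o g := by
  unfold Mf
  rw [← Finset.sum_add_distrib]
  refine Finset.sum_congr rfl fun j _ => ?_
  have hadd : ∀ f g : X → ℝ, S.E (fun x => f x + g x) = S.E f + S.E g := fun f g => EE_add f g
  rw [← hadd]
  congr 1
  funext x
  rw [← Finset.sum_add_distrib]
  exact Finset.sum_congr rfl fun k _ => mul_add _ _ _

theorem Mf_sum (o : ℕ) (I : Finset ℕ) (f : ℕ → ℕ → X → ℕ → ℝ) :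
    Mf S o (fun j x k => ∑ s ∈ I, f s j x k) = ∑ s ∈ I, Mf S o (f s) := by
  unfold Mf
  rw [Finset.sum_comm]
  refine Finset.sum_congr rfl fun j _ => ?_
  rw [← E_sum]
  congr 1
  funext x
  rw [Finset.sum_comm]
  exact Finset.sum_congr rfl fun k _ => by rw [Finset.mul_sum]

theorem Mf_mono (o : ℕ) {f g : ℕ → X → ℕ → ℝ} (h : ∀ j x k, f j x k ≤ g j x k) :
    Mf S o f ≤ Mf S o g :=
  Finset.sum_le_sum fun j _ => E_mono S fun x => Finset.sum_le_sum fun k _ =>
    mul_le_mul_of_nonneg_left (h j x k) (nu_nonneg S j x (b0_le_b1 S o 0 k))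

theorem Mf_one (o : ℕ) :
    Mf S o (fun _ _ _ => 1) = ∑ j ∈ range S.n, S.E (fun x => S.e j x o) := by
  unfold Mf
  refine Finset.sum_congr rfl fun j _ => ?_
  congr 1
  funext x
  rw [← sum_blocks S o (Nat.zero_le _) j x]
  exact Finset.sum_congr rfl fun k _ => mul_one _

/-- heavy at scale `0` -/
noncomputable def T0 (th : ℕ → ℝ) (o : ℕ) : ℝ :=
  Mf S o fun j x k => ind (th 0 ≤ S.nuT o 0 j x k)

/-- light at the largest scale -/
noncomputable def Tinf (th : ℕ → ℝ) (o : ℕ) : ℝ :=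
  Mf S o fun j x k => ind (S.nuT o S.smax (j / 2 ^ S.smax) x (k / 16 ^ S.smax) < th S.smax)

/-- light at scale `s - 1`, very heavy at scale `s` -/
noncomputable def T3 (th th' : ℕ → ℝ) (o s : ℕ) : ℝ :=
  Mf S o fun j x k => ind (th' s < S.nuT o s (j / 2 ^ s) x (k / 16 ^ s) ∧
    S.nuT o (s - 1) (j / 2 ^ (s - 1)) x (k / 16 ^ (s - 1)) < th (s - 1))

/-- between the two thresholds of scale `s` -/
noncomputable def T4 (th th' : ℕ → ℝ) (o s : ℕ) : ℝ :=
  Mf S o fun j x k => ind (th s ≤ S.nuT o s (j / 2 ^ s) x (k / 16 ^ s) ∧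
    S.nuT o s (j / 2 ^ s) x (k / 16 ^ s) ≤ th' s)

/-- Covering, pointwise: smallest heavy scale. -/
theorem covering (th th' : ℕ → ℝ) (m : ℕ → ℝ) (N : ℕ) :
    1 ≤ ind (th 0 ≤ m 0) + ind (m N < th N) +
      ∑ s ∈ Icc 1 N, (ind (th' s < m s ∧ m (s - 1) < th (s - 1)) +
        ind (th s ≤ m s ∧ m s ≤ th' s)) := by
  classical
  have hsum : ∀ s, 0 ≤ ind (th' s < m s ∧ m (s - 1) < th (s - 1)) +
      ind (th s ≤ m s ∧ m s ≤ th' s) := fun s => add_nonneg (ind_nonneg _) (ind_nonneg _)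
  by_cases h0 : th 0 ≤ m 0
  · rw [ind_true h0]
    have := Finset.sum_nonneg (s := Icc 1 N) fun s _ => hsum s
    have h2 := ind_nonneg (m N < th N)
    linarith
  by_cases hN : m N < th N
  · rw [ind_true hN]
    have := Finset.sum_nonneg (s := Icc 1 N) fun s _ => hsum s
    have h2 := ind_nonneg (th 0 ≤ m 0)
    linarith
  -- smallest heavy scale
  have hex : ∃ s, th s ≤ m s := ⟨N, not_lt.1 hN⟩
  obtain ⟨s, hs, hmin⟩ : ∃ s, th s ≤ m s ∧ ∀ t < s, ¬ th t ≤ m t :=
    ⟨Nat.find hex, Nat.find_spec hex, fun t ht => Nat.find_min hex ht⟩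
  have hsN : s ≤ N := by
    by_contra h
    exact hmin N (by omega) (not_lt.1 hN)
  have hs0 : s ≠ 0 := fun h => h0 (by rw [h] at hs; exact hs)
  have hs1 : m (s - 1) < th (s - 1) := not_le.1 (hmin (s - 1) (by omega))
  have hmem : s ∈ Icc 1 N := mem_Icc.2 ⟨by omega, hsN⟩
  have h1 := Finset.single_le_sum (f := fun s => ind (th' s < m s ∧ m (s - 1) < th (s - 1)) +
      ind (th s ≤ m s ∧ m s ≤ th' s)) (fun s _ => hsum s) hmem
  have h2 : 1 ≤ ind (th' s < m s ∧ m (s - 1) < th (s - 1)) +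
      ind (th s ≤ m s ∧ m s ≤ th' s) := by
    by_cases h : th' s < m s
    · rw [ind_true ⟨h, hs1⟩]
      have := ind_nonneg (th s ≤ m s ∧ m s ≤ th' s)
      linarith
    · rw [ind_true (p := th s ≤ m s ∧ m s ≤ th' s) ⟨hs, not_lt.1 h⟩]
      have := ind_nonneg (th' s < m s ∧ m (s - 1) < th (s - 1))
      linarith
  have h3 := ind_nonneg (th 0 ≤ m 0)
  have h4 := ind_nonneg (m N < th N)
  linarith

/-- **Decomposition of the mass**, one offset. -/
theorem mass_o (th th' : ℕ → ℝ) (o : ℕ) :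
    ∑ j ∈ range S.n, S.E (fun x => S.e j x o) ≤
      T0 S th o + Tinf S th o + ∑ s ∈ Icc 1 S.smax, (T3 S th th' o s + T4 S th th' o s) := by
  rw [← Mf_one S o]
  unfold T0 Tinf T3 T4
  simp only [← Mf_add]
  rw [← Mf_sum, ← Mf_add]
  refine Mf_mono S o fun j x k => ?_
  have hc := covering th th' (fun s => S.nuT o s (j / 2 ^ s) x (k / 16 ^ s)) S.smax
  simpa only [pow_zero, Nat.div_one] using hc

/-- **Decomposition of the mass**, any offset `o < D smax`, mass after `D smax`. -/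
theorem mass_le (th th' : ℕ → ℝ) {o : ℕ} (ho : o < S.D S.smax) :
    ∑ j ∈ range S.n, S.E (fun x => S.e j x (S.D S.smax)) ≤
      T0 S th o + Tinf S th o + ∑ s ∈ Icc 1 S.smax, (T3 S th th' o s + T4 S th th' o s) :=
  (Finset.sum_le_sum fun j _ => E_mono S fun x => S.anti j x ho.le).trans (mass_o S th th' o)

/-! ## Steps 2, 3, 4 -/

theorem E_add (f g : X → ℝ) : S.E (fun x => f x + g x) = S.E f + S.E g := EE_add f g

theorem E_mul_left (c : ℝ) (f : X → ℝ) : S.E (fun x => c * f x) = c * S.E f := EE_mul_left c f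

theorem E_const (c : ℝ) : S.E (fun _ => c) = c := EE_const S.hw c

theorem cast_na_mul {s : ℕ} (hs : s ≤ S.smax) : (2 : ℝ) ^ s * (S.na s : ℝ) = S.n := by
  have := na_mul S hs
  rw [← this]; push_cast; ring

/-- **Step 2**: elements that are light at the largest scale. -/
theorem step2 {th : ℕ → ℝ} (hth : 0 ≤ th S.smax) (o : ℕ) :
    Tinf S th o ≤ S.n * (S.nb S.smax * th S.smax) + 2 ^ S.smax * GB0 S o S.smax := by
  unfold Tinf Mf
  refine (sum_scale_a S le_rfl o
    (fun a x k => ind (S.nuT o S.smax a x k < th S.smax)) (fun _ _ _ => ind_nonneg _)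
    (fun a x y k h => by rw [nuT_meas S o S.smax a k le_rfl h])).trans ?_
  have h1 : ∀ a ∈ range (S.na S.smax), S.E (fun x => ∑ k ∈ range (S.nb S.smax),
      ind (S.nuT o S.smax a x k < th S.smax) *
        (S.nuT o S.smax a x k + S.G S.smax a x (S.b0 o S.smax k))) ≤
      S.nb S.smax * th S.smax +
        S.E (fun x => ∑ k ∈ range (S.nb S.smax), S.G S.smax a x (S.b0 o S.smax k)) := by
    intro a ha
    rw [← E_const S ((S.nb S.smax : ℝ) * th S.smax), ← E_add]
    refine E_mono S fun x => ?_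
    have : (S.nb S.smax : ℝ) * th S.smax = ∑ k ∈ range (S.nb S.smax), th S.smax := by
      rw [Finset.sum_const, card_range, nsmul_eq_mul]
    rw [this, ← Finset.sum_add_distrib]
    refine Finset.sum_le_sum fun k _ => ?_
    have hG := G_nonneg S le_rfl (mem_range.1 ha) x (S.b0 o S.smax k)
    by_cases h : S.nuT o S.smax a x k < th S.smax
    · rw [ind_true h]; linarith
    · rw [ind_false h]; linarith
  have h2 := Finset.sum_le_sum h1
  rw [Finset.sum_add_distrib, Finset.sum_const, card_range, nsmul_eq_mul] at h2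
  calc (2 : ℝ) ^ S.smax * _ ≤ 2 ^ S.smax * (S.na S.smax * (S.nb S.smax * th S.smax) +
        GB0 S o S.smax) := mul_le_mul_of_nonneg_left h2 (by positivity)
    _ = (2 ^ S.smax * (S.na S.smax : ℝ)) * (S.nb S.smax * th S.smax) +
        2 ^ S.smax * GB0 S o S.smax := by ring
    _ = _ := by rw [cast_na_mul S le_rfl]

/-- the masses of the blocks of a top sum up to at most one -/
theorem sum_nuT_le (o : ℕ) {s : ℕ} (hs : s ≤ S.smax) (a : ℕ) (x : X) :
    ∑ k ∈ range (S.nb s), S.nuT o s a x k ≤ 1 := by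
  unfold Sys.nuT
  rw [sum_blocks S o hs]
  exact S.le_one _ x _

/-- **Step 3**: light at scale `s`, very heavy at scale `s + 1`. -/
theorem step3 {th th' : ℕ → ℝ} {s : ℕ} (hs : s + 1 ≤ S.smax) (hth : 0 ≤ th s)
    (hth' : 0 < th' (s + 1)) (o : ℕ) :
    T3 S th th' o (s + 1) ≤ 16 * (th s / th' (s + 1)) * S.n + 2 ^ s * GB0 S o s := by
  have hs' : s ≤ S.smax := by omega
  unfold T3 Mf
  simp only [Nat.add_sub_cancel]
  have hre : ∀ j k : ℕ, ∀ x : X,
      ind (th' (s + 1) < S.nuT o (s + 1) (j / 2 ^ (s + 1)) x (k / 16 ^ (s + 1)) ∧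
        S.nuT o s (j / 2 ^ s) x (k / 16 ^ s) < th s) =
      (fun a x k => ind (th' (s + 1) < S.nuT o (s + 1) (a / 2) x (k / 16) ∧
        S.nuT o s a x k < th s)) (j / 2 ^ s) x (k / 16 ^ s) := by
    intro j k x
    simp only [Nat.div_div_eq_div_mul, ← pow_succ]
  simp only [hre]
  refine (sum_scale_a S hs' o
    (fun a x k => ind (th' (s + 1) < S.nuT o (s + 1) (a / 2) x (k / 16) ∧
        S.nuT o s a x k < th s)) (fun _ _ _ => ind_nonneg _) ?_).trans ?_
  · intro a x y k h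
    have hlev : (a + 1) * 2 ^ s ≤ (a / 2 + 1) * 2 ^ (s + 1) := by
      rw [pow_succ', ← mul_assoc]
      exact Nat.mul_le_mul_right _ (by omega)
    rw [nuT_meas S o s a k le_rfl h, nuT_meas S o (s + 1) (a / 2) (k / 16) hlev h]
  have hna : S.na s = S.na (s + 1) * 2 := by
    have h1 := na_mul S hs'
    have h2 := na_mul S hs
    have h3 : S.na s * 2 ^ s = S.na (s + 1) * 2 * 2 ^ s := by rw [h1, ← h2, pow_succ]; ring
    exact Nat.eq_of_mul_eq_mul_right (by positivity) h3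
  have hnb : S.nb s = S.nb (s + 1) * 16 := by
    unfold Sys.nb
    rw [mul_assoc, ← pow_succ]; congr 2; omega
  have h1 : ∀ a ∈ range (S.na s), S.E (fun x => ∑ k ∈ range (S.nb s),
      ind (th' (s + 1) < S.nuT o (s + 1) (a / 2) x (k / 16) ∧ S.nuT o s a x k < th s) *
        (S.nuT o s a x k + S.G s a x (S.b0 o s k))) ≤
      16 * (th s / th' (s + 1)) +
        S.E (fun x => ∑ k ∈ range (S.nb s), S.G s a x (S.b0 o s k)) := by
    intro a ha
    rw [← E_const S (16 * (th s / th' (s + 1))), ← E_add]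
    refine E_mono S fun x => ?_
    have h2 : ∑ k ∈ range (S.nb s), th s / th' (s + 1) *
        S.nuT o (s + 1) (a / 2) x (k / 16) ≤ 16 * (th s / th' (s + 1)) := by
      rw [← Finset.mul_sum, hnb, sum_range_mul_div (S.nb (s + 1)) 16 (by norm_num)
        (fun K _ => S.nuT o (s + 1) (a / 2) x K)]
      simp only [Finset.sum_const, card_range, nsmul_eq_mul]
      rw [← Finset.mul_sum]
      have h3 := sum_nuT_le S o hs (a / 2) x
      have h4 : 0 ≤ th s / th' (s + 1) := div_nonneg hth hth'.le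
      have h5 := mul_le_mul_of_nonneg_left h3 h4
      push_cast
      linarith
    refine le_trans ?_ (add_le_add_left h2 _)
    rw [← Finset.sum_add_distrib]
    refine Finset.sum_le_sum fun k _ => ?_
    have hG := G_nonneg S hs' (mem_range.1 ha) x (S.b0 o s k)
    have hr : 0 ≤ th s / th' (s + 1) := div_nonneg hth hth'.le
    have hT := nuT_nonneg S o (s + 1) (a / 2) x (k / 16)
    by_cases h : th' (s + 1) < S.nuT o (s + 1) (a / 2) x (k / 16) ∧ S.nuT o s a x k < th s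
    · rw [ind_true h]
      have h6 : th s ≤ th s / th' (s + 1) * S.nuT o (s + 1) (a / 2) x (k / 16) := by
        rw [div_mul_eq_mul_div, le_div_iff₀ hth']
        exact mul_le_mul_of_nonneg_left h.1.le hth
      linarith [h.2]
    · rw [ind_false h]
      have := mul_nonneg hr hT
      linarith
  have h2 := Finset.sum_le_sum h1
  rw [Finset.sum_add_distrib, Finset.sum_const, card_range, nsmul_eq_mul] at h2
  calc (2 : ℝ) ^ s * _ ≤ 2 ^ s * (S.na s * (16 * (th s / th' (s + 1))) + GB0 S o s) :=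
        mul_le_mul_of_nonneg_left h2 (by positivity)
    _ = (2 ^ s * (S.na s : ℝ)) * (16 * (th s / th' (s + 1))) + 2 ^ s * GB0 S o s := by ring
    _ = _ := by rw [cast_na_mul S hs']; ring

/-- **Step 4**: between the thresholds. -/
theorem step4 {s : ℕ} (hs : s ≤ S.smax) (th th' : ℕ → ℝ) (o : ℕ) :
    T4 S th th' o s ≤ 2 ^ s * ∑ a ∈ range (S.na s), S.E (fun x => ∑ k ∈ range (S.nb s),
      ind (th s ≤ S.nuT o s a x k ∧ S.nuT o s a x k ≤ th' s) *
        (S.rho o s a x k + S.G s a x (S.b1 o s k))) := by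
  unfold T4 Mf
  exact sum_scale_b S hs o (fun a x k => ind (th s ≤ S.nuT o s a x k ∧ S.nuT o s a x k ≤ th' s))
    (fun _ _ _ => ind_nonneg _)
    (fun a x y k h => by rw [nuT_meas S o s a k le_rfl h])

end Vale.Agent.P315.H241
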