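import Vale.Agent.P315.H241.FinalAvg
import Vale.Agent.P315.H784.Budget

/-!
# P315, Part A (short version): the numerical collapse
-/

set_option autoImplicit false

open Finset Filter

namespace Vale.Agent.P315.H241

open Vale.Agent.P315.Acc

theorem errA_eq {X : Type} [Fintype X] [Nonempty X] (S : Sys X) {eps0 : ℝ} (he : 0 < eps0)
    (m : ℕ) (L : ℕ → ℝ) (N : ℕ → ℕ) (s : ℕ) :
    errA S (Par.thm m) (Par.thpm eps0 m) L N s =
      Par.term eps0 S.Gam S.n (fun s => (S.D s : ℝ)) L (fun s => (N s : ℝ)) S.smax s := by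
  have h1 : 16 * (Par.thm m (s - 1) / Par.thpm eps0 m s) = eps0 / 4 ^ s := by
    unfold Par.thpm
    have h2 := (Par.thm_pos m (s - 1)).ne'
    field_simp
  have h3 : UA S s = Par.U (fun s => (S.D s : ℝ)) S.Gam S.smax s := rfl
  unfold errA Par.term
  rw [h1, h3]
  ring

/-- **The accounting theorem, averaged, with the thresholds of `Par`.** `T` = elements heavy at
scale `0`, `ex` = capacities, failures and bad units. -/
theorem thmA {eps0 CL CN : ℝ} (he : 0 < eps0) (hCL : 0 ≤ CL) (hCN : 0 ≤ CN) :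
    ∀ᶠ m : ℕ in atTop, ∀ (X : Type) [Fintype X] [Nonempty X] (S : Sys X) (L : ℕ → ℝ)
      (N : ℕ → ℕ) (T : ℕ → ℝ) (ex : ℕ → ℕ → ℝ), S.D0 = m ^ 2 →
      (∀ s, 0 ≤ L s) → (∀ s, L s ≤ CL * m * 2 ^ s) → (∀ s, (N s : ℝ) ≤ CN * m * 2 ^ s) →
      (5 / 2 + 5 / 2 * (CL * m) + 4 * (CN * m)) * 4 ^ S.smax ≤ eps0 * S.n →
      S.n * (S.nb S.smax * Par.thm m S.smax) ≤ eps0 * S.n →
      (∀ o, o < S.D S.smax → ∑ j ∈ range S.n, S.E (fun x => S.e j x o) ≤
        4 * S.Gam + T o + S.n * (S.nb S.smax * Par.thm m S.smax) +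
          2 ^ S.smax * GB0 S o S.smax +
          ∑ s ∈ Icc 1 S.smax, (errO S (Par.thm m) (Par.thpm eps0 m) L N o s + ex o s)) →
      ∑ j ∈ range S.n, S.E (fun x => S.e j x (S.D S.smax)) ≤
        (4 + eps0) * S.Gam + 4 * eps0 * S.n + S.avO T +
          ∑ s ∈ Icc 1 S.smax, S.avO (fun o => ex o s) := by
  filter_upwards [Par.eventually_budget he hCL hCN, eventually_ge_atTop 1] with m hm hm1
  intro X _ _ S L N T ex hD0 hL0 hL hN hS hlast hfix
  have m0 : (0 : ℝ) < m := by exact_mod_cast hm1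
  have h1 := final_avg S hL0 N T ex hfix
  have h2 := hm S.smax S.n S.Gam (fun s => (S.D s : ℝ)) L (fun s => (N s : ℝ))
    (Nat.cast_nonneg _) (Gam_nonneg S)
    (fun s => by unfold Sys.D; rw [hD0]; push_cast; exact le_rfl) hL0 hL
    (fun s => Nat.cast_nonneg _) hN hS
  have h3 : 0 ≤ S.Gam / (m : ℝ) ^ 2 := div_nonneg (Gam_nonneg S) (by positivity)
  rw [Finset.sum_add_distrib, Finset.sum_congr rfl fun s _ => errA_eq S he m L N s] at h1
  have h4 : 2 ^ S.smax * (S.Gam / S.D S.smax) = 2 ^ S.smax * S.Gam / S.D S.smax := by ring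
  rw [h4] at h1
  linarith

end Vale.Agent.P315.H241
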