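import Vale.Agent.P315.H295.Final
import Vale.Agent.P315.H241.ThmA
import Vale.Agent.P315.Q976.ValueAcc

/-!
# P315, Part A: THEOREM A (accounting), for all large `m`
-/

set_option autoImplicit false

open Finset Filter

namespace Vale.Agent.P315.H241

open Vale.Agent.P315.Acc

/-- Dyadic class of a number. -/
theorem exists_cls {v : ℝ} (hv1 : v < 1) {K : ℕ} (hv : (1 / 2 : ℝ) ^ (K + 1) ≤ v) :
    ∃ l ∈ range (K + 1), (1 / 2 : ℝ) ^ (l + 1) ≤ v ∧ v < (1 / 2 : ℝ) ^ l := by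
  classical
  have hex : ∃ l, (1 / 2 : ℝ) ^ (l + 1) ≤ v := ⟨K, hv⟩
  refine ⟨Nat.find hex, ?_, Nat.find_spec hex, ?_⟩
  · rw [mem_range]
    exact Nat.lt_succ_of_le (Nat.find_min' hex hv)
  · rcases Nat.eq_zero_or_pos (Nat.find hex) with h | h
    · rw [h, pow_zero]; exact hv1
    · have h1 := Nat.find_min hex (m := Nat.find hex - 1) (by omega)
      rw [Nat.sub_add_cancel h] at h1
      exact not_le.1 h1

theorem avO_He_nonneg {X : Type} [Fintype X] [Nonempty X] (S : Sys X) (T : ℕ → ℝ)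
    (hT : ∀ o, 0 ≤ T o) : 0 ≤ S.avO T :=
  div_nonneg (Finset.sum_nonneg fun o _ => hT o) (Nat.cast_nonneg _)

/-- **THEOREM A.** -/
theorem theoremA {eps0 CL : ℝ} (he : 0 < eps0) (hCL : 0 ≤ CL) :
    ∀ᶠ m : ℕ in atTop, ∀ (X : Type) [Fintype X] [Nonempty X] (S : Sys X) (R : Mach S)
      (P : H295.Thr S R) (C7 : ℝ) (L : ℕ → ℝ) (good : ℕ → ℕ → X → Prop)
      (Cap : ℕ → ℕ → ℕ → X → ℝ) (Fail : ℕ → ℕ → ℕ → X → Prop),
      8 ≤ C7 → S.D0 = m ^ 2 → P.th = Par.thm m → P.th' = Par.thpm eps0 m →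
      (∀ s, 0 ≤ P.c s) → (∀ s, 1 ≤ s → s ≤ S.smax → 3 * P.c s < 1) →
      (∀ s t, 1 ≤ s → s + 2 ≤ t → t ≤ S.smax → 80 * P.c t ≤ 3 * P.th s) →
      (∀ s, 0 ≤ L s) → (∀ s, L s ≤ CL * m * 2 ^ s) → (∀ o s a x, 0 ≤ Cap o s a x) →
      (5 / 2 + 5 / 2 * (CL * m) + 12 * m) * 4 ^ S.smax ≤ eps0 * S.n →
      S.n * (S.nb S.smax * Par.thm m S.smax) ≤ eps0 * S.n →
      (∀ o, o < S.D S.smax → ∀ s ∈ Icc 1 S.smax, ∀ a < S.na s,
        H295.H3bU R P.act C7 L good Cap Fail o s a) →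
      ∑ j ∈ range S.n, S.E (fun x => S.e j x (S.D S.smax)) ≤
        (4 + eps0) * S.Gam + 4 * eps0 * S.n + S.avO (H295.He S (Par.thm m 0 / 2)) +
          ∑ s ∈ Icc 1 S.smax, (S.avO (fun o => H295.TA S s (fun a x => Cap o s a x)) +
            2 ^ s * S.avO (fun o => H295.TA S s (fun a x => ind (Fail o s a x))) +
            2 ^ s * H295.TA S s (fun a x => ind (¬ good s a x))) := by
  filter_upwards [Par.eventually_budget he hCL (by norm_num : (0 : ℝ) ≤ 3),
    eventually_ge_atTop 1] with m hm hm1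
  intro X _ _ S R P C7 L good Cap Fail hC7 hD0 hth hth' hc0 hc1 hc2 hL0 hL hCap hS hlast hb
  have m1 : (1 : ℝ) ≤ m := by exact_mod_cast hm1
  have m0 : (0 : ℝ) < m := by linarith
  -- classes
  let Ls : ℕ → Finset ℕ := fun s => range (m * 2 ^ s + 2)
  have hLs : ∀ s, 1 ≤ s → s ≤ S.smax → ∀ v : ℝ, 3 / 8 * P.th s ≤ v → v ≤ 3 * P.c s →
      ∃ l ∈ Ls s, (1 / 2 : ℝ) ^ (l + 1) ≤ v ∧ v < (1 / 2 : ℝ) ^ l := by
    intro s h1 h2 v hv1 hv2
    have h3 : v < 1 := lt_of_le_of_lt hv2 (hc1 s h1 h2)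
    refine exists_cls h3 (K := m * 2 ^ s + 1) ?_
    refine le_trans ?_ hv1
    rw [hth]
    unfold Par.thm
    rw [pow_add, pow_add]
    have : (0 : ℝ) ≤ (1 / 2) ^ (m * 2 ^ s) := by positivity
    linarith
  have hcard : ∀ s, (((Ls s).card : ℕ) : ℝ) ≤ 3 * m * 2 ^ s := by
    intro s
    have h1 : (1 : ℝ) ≤ 2 ^ s := one_le_pow₀ (by norm_num)
    have h2 : (1 : ℝ) ≤ m * 2 ^ s := by nlinarith
    simp only [Ls, card_range]
    push_cast
    linarith
  -- the fixed inequality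
  have hfix : ∀ o, o < S.D S.smax → ∑ j ∈ range S.n, S.E (fun x => S.e j x o) ≤
      4 * S.Gam + (H295.He S (Par.thm m 0 / 2) o + GB1 S o 0) +
        S.n * (S.nb S.smax * Par.thm m S.smax) + 2 ^ S.smax * GB0 S o S.smax +
        ∑ s ∈ Icc 1 S.smax, (errO S (Par.thm m) (Par.thpm eps0 m) L (fun s => (Ls s).card) o s +
          (H295.TA S s (fun a x => Cap o s a x) +
            2 ^ s * H295.TA S s (fun a x => ind (Fail o s a x)) +
            2 ^ s * H295.TA S s (fun a x => ind (¬ good s a x)))) := by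
    intro o ho
    have h := H295.final_fixed P hC7 hL0 (fun s a x => hCap o s a x) hc0
      (fun s => by rw [hth']; exact Par.thpm_pos he m s) hc2 Ls hLs (hb o ho)
    rw [hth, hth'] at h
    refine h.trans (le_of_eq ?_)
    rw [← add_assoc]
    congr 1
    refine Finset.sum_congr rfl fun s _ => ?_
    unfold errO US
    rw [pow_succ]
    ring
  have h1 := final_avg S hL0 (fun s => (Ls s).card) _ _ hfix
  have h2 := hm S.smax S.n S.Gam (fun s => (S.D s : ℝ)) L (fun s => (((Ls s).card : ℕ) : ℝ))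
    (Nat.cast_nonneg _) (Gam_nonneg S)
    (fun s => by unfold Sys.D; rw [hD0]; push_cast; exact le_rfl) hL0 hL
    (fun s => Nat.cast_nonneg _) hcard
    (le_trans (le_of_eq (by ring)) hS)
  rw [Finset.sum_add_distrib, Finset.sum_congr rfl fun s _ => errA_eq S he m L _ s] at h1
  rw [avO_add] at h1
  have h3 := F2b S (Nat.zero_le S.smax)
  have hD0' : (S.D 0 : ℝ) = (m : ℝ) ^ 2 := by
    unfold Sys.D; rw [hD0]; push_cast; ring
  rw [hD0'] at h3
  have h4 : 2 ^ S.smax * (S.Gam / S.D S.smax) = 2 ^ S.smax * S.Gam / S.D S.smax := by ring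
  rw [h4] at h1
  have h5 : ∑ s ∈ Icc 1 S.smax, S.avO (fun o => H295.TA S s (fun a x => Cap o s a x) +
            2 ^ s * H295.TA S s (fun a x => ind (Fail o s a x)) +
            2 ^ s * H295.TA S s (fun a x => ind (¬ good s a x))) =
      ∑ s ∈ Icc 1 S.smax, (S.avO (fun o => H295.TA S s (fun a x => Cap o s a x)) +
            2 ^ s * S.avO (fun o => H295.TA S s (fun a x => ind (Fail o s a x))) +
            2 ^ s * H295.TA S s (fun a x => ind (¬ good s a x))) := by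
    refine Finset.sum_congr rfl fun s _ => ?_
    rw [avO_add, avO_add, avO_mul_left, avO_const]
  rw [h5] at h1
  linarith

/-- **THEOREM A + VALUE**: bound for the root excess at the cut. `R0 x` = number of static
indices at which the leaf has not been read, `t0` = rounding at the leaves. -/
theorem root_cut {X : Type} [Fintype X] [Nonempty X] (S : Sys X) {eps0 err t0 : ℝ}
    (he : 0 ≤ eps0) (ht0 : 0 ≤ t0) {R0 : X → ℕ}
    (hleaf : ∀ x b, S.e 0 x b ≤ ind (b < R0 x) + t0)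
    (hA : ∑ j ∈ range S.n, S.E (fun x => S.e j x (S.D S.smax)) ≤ (4 + eps0) * S.Gam + err) :
    S.n * S.E (fun x => S.e S.n x (S.D S.smax)) ≤
      (4 + eps0) * (S.E (fun x => (R0 x : ℝ)) + S.T * t0) + err := by
  have h1 := Q976.mass_cut S (S.D S.smax)
  have h2 := Q976.gam_from_le' S ht0 hleaf 0
  have h3 : ∑ b ∈ Finset.Ico 0 S.T, (S.E (fun x => S.e 0 x b) - S.E (fun x => S.e S.n x b)) =
      S.Gam := by
    unfold Sys.Gam
    rw [Finset.range_eq_Ico]
  rw [h3] at h2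
  simp only [Nat.sub_zero] at h2
  have h4 := mul_le_mul_of_nonneg_left h2 (by linarith : 0 ≤ 4 + eps0)
  linarith

end Vale.Agent.P315.H241
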